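import Vale.Agent.P310.Main

open Filter Asymptotics Vale.Agent.P310

/-- Deciding `k`-WL equivalence needs time `n ^ Ω(k)`, and no exponent `g(k) = o(k)` suffices. -/
theorem Vale.Agent.Results.P310.LowerBound.result :
    (∃ ε : ℝ, 0 < ε ∧ ∀ k : ℕ, 2 ≤ k → ∀ (A : Turing.TM2ComputableAux Bool Bool) (T : ℕ → ℕ),
      DecidesWL k A T → ∀ᶠ n : ℕ in atTop, (n : ℝ) ^ (ε * k) ≤ T n) ∧
    ¬ ∃ g : ℕ → ℝ, (g =o[atTop] fun k => (k : ℝ)) ∧ ∀ k : ℕ, 2 ≤ k →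
      ∃ (A : Turing.TM2ComputableAux Bool Bool) (T : ℕ → ℕ), DecidesWL k A T ∧
        (fun n => (T n : ℝ)) =O[atTop] fun n : ℕ => (n : ℝ) ^ g k := by
  refine ⟨lower_bound, ?_⟩
  rintro ⟨g, hg, h⟩
  obtain ⟨ε, hε, hl⟩ := lower_bound
  obtain ⟨k, hk, hk2⟩ := ((hg.def (half_pos hε)).and (eventually_ge_atTop 2)).exists
  obtain ⟨A, T, hA, hT⟩ := h k hk2
  obtain ⟨C, hC⟩ := hT.bound
  have hpos : 0 < ε / 2 * k := mul_pos (half_pos hε) (by exact_mod_cast (by omega : 0 < k))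
  have ht := ((tendsto_rpow_atTop hpos).comp tendsto_natCast_atTop_atTop).eventually_gt_atTop |C|
  obtain ⟨n, ⟨⟨h1, h2⟩, h3⟩, h4⟩ :=
    (((hC.and (hl k hk2 A T hA)).and ht).and (eventually_ge_atTop 1)).exists
  have hn : (1 : ℝ) ≤ n := by exact_mod_cast h4
  have h5 : (n : ℝ) ^ g k ≤ (n : ℝ) ^ (ε / 2 * k) :=
    Real.rpow_le_rpow_of_exponent_le hn ((le_abs_self _).trans (by simpa using hk))
  have h6 : (0 : ℝ) < (n : ℝ) ^ g k := by positivity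
  have h7 : (n : ℝ) ^ (ε * k) = (n : ℝ) ^ (ε / 2 * k) * (n : ℝ) ^ (ε / 2 * k) := by
    rw [← Real.rpow_add (by linarith)]; congr 1; ring
  simp only [Real.norm_eq_abs, Nat.abs_cast, abs_of_pos h6, Function.comp] at h1 h3
  have := le_abs_self C
  have := abs_nonneg C
  nlinarith
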